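import Vale.Agent.P030.T.Catalan

namespace Vale.Agent.Results.P030.CatalanIrrational

/-- **Catalan's constant is irrational.** `G = β(2) = ∑_{j ≥ 0} (-1)^j / (2j+1)^2`. -/
theorem result : Irrational (∑' j : ℕ, (-1 : ℝ) ^ j / (2 * (j : ℝ) + 1) ^ 2) :=
  Vale.Agent.P030.T.catalan_irrational

end Vale.Agent.Results.P030.CatalanIrrational
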